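import Vale.Agent.P193.FP
import Vale.Agent.P193.G2
import Vale.Agent.P193.Mach
import Vale.Agent.P193.Comp

namespace Vale.Agent.Results.P193.BooneHigman

open Vale.Agent.P193

theorem result {G : Type*} [Group G] (n : ℕ) (gen : Fin n → G)
    (hgen : Function.Surjective (FreeGroup.lift gen))
    (hdec : ComputablePred fun w : List (Fin n × Bool) => FreeGroup.lift gen (FreeGroup.mk w) = 1) :
    ∃ (H : Type) (_ : Group H), Group.IsFinitelyPresented H ∧ IsSimpleGroup H ∧
      ∃ f : G →* H, Function.Injective f := by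
  have hw : ∀ w, FreeGroup.lift gen (FreeGroup.mk w) = gw gen w := fun w => FreeGroup.lift_mk
  have hs : Function.Surjective (gw gen) := fun x => by
    obtain ⟨y, rfl⟩ := hgen x
    exact ⟨y.toWord, by rw [← hw, FreeGroup.mk_toWord]⟩
  simp only [hw] at hdec
  obtain ⟨D, hD, hS, hr⟩ := exists_machine
  obtain ⟨e, he⟩ := exists_fixed D hD hr (Sm gen) (Sm_finite gen) _ hdec
  obtain ⟨R, _, N, hfp, f, hf⟩ := ring_main gen hD hS he enc_injective hs
  exact ⟨Rˣ, inferInstance, N.fp hfp, N.simple, f, hf⟩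

end Vale.Agent.Results.P193.BooneHigman
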